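import Vale.Agent.P097.H286.C.Defs

/-!
# P097 / case [c], row A5.GROWTH, output: growth of `F''`, `F - 2 π x`, `q`, `q'`, `q''`

From bounds `exp (C d ^ (-a))` of `F'` and `Q` (`d = b - |Im x|`) on the strip: the same bound for
`F''` and `F x - 2 π x`, and `exp (exp (C d ^ (-a)))` for `q`, `q'`, `q''` by Gronwall on vertical
segments: `q''' = (Q - F' ^ 2) q' - 3 F' F'' q`.
-/

set_option linter.all false

open Complex Metric Filter Topology Set
open scoped ComplexConjugate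

namespace Vale.Agent.P097.H348.G

open Vale.Agent.P097 Vale.Agent.P097.TA Vale.Agent.P097.H202 Vale.Agent.P097.SC

/-- Gronwall on a vertical segment -/
theorem gron {E : Type*} [NormedAddCommGroup E] [NormedSpace ℂ E] {V V' : ℂ → E} {ξ y K : ℝ}
    (hd : ∀ s : ℝ, |s| ≤ |y| → HasDerivAt V (V' (ξ + s * I)) (ξ + s * I))
    (hb : ∀ s : ℝ, |s| ≤ |y| → ‖V' (ξ + s * I)‖ ≤ K * ‖V (ξ + s * I)‖) :
    ‖V (ξ + y * I)‖ ≤ ‖V ξ‖ * Real.exp (K * |y|) := by
  have hs : ∀ t ∈ Icc (0 : ℝ) 1, |t * y| ≤ |y| := by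
    intro t ht
    rw [abs_mul, abs_of_nonneg ht.1]
    exact mul_le_of_le_one_left (abs_nonneg y) ht.2
  have hf : ∀ t ∈ Icc (0 : ℝ) 1, HasDerivAt (fun t : ℝ => V (ξ + ((t * y : ℝ) : ℂ) * I))
      (((y : ℂ) * I) • V' (ξ + ((t * y : ℝ) : ℂ) * I)) t := by
    intro t ht
    have h1 : HasDerivAt (fun t : ℝ => (ξ : ℂ) + ((t * y : ℝ) : ℂ) * I) ((y : ℂ) * I) t := by
      have h2 : HasDerivAt (fun t : ℝ => (t : ℂ)) 1 t := Complex.ofRealCLM.hasDerivAt
      have h3 := ((h2.mul_const (y : ℂ)).mul_const I).const_add (ξ : ℂ)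
      simp only [one_mul] at h3
      refine h3.congr_of_eventuallyEq (Eventually.of_forall fun s => ?_)
      simp
    exact HasDerivAt.scomp t (hd (t * y) (hs t ht)) h1
  have h := norm_le_gronwallBound_of_norm_deriv_right_le (f := fun t : ℝ => V (ξ + ((t * y : ℝ) : ℂ) * I))
    (f' := fun t : ℝ => ((y : ℂ) * I) • V' (ξ + ((t * y : ℝ) : ℂ) * I)) (δ := ‖V ξ‖) (K := K * |y|)
    (ε := 0) (a := 0) (b := 1) (fun t ht => (hf t ht).continuousAt.continuousWithinAt)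
    (fun t ht => (hf t ⟨ht.1, ht.2.le⟩).hasDerivWithinAt) (by simp)
    (by
      intro t ht
      have h1 := hb (t * y) (hs t ⟨ht.1, ht.2.le⟩)
      rw [norm_smul, norm_mul, Complex.norm_I, mul_one, Complex.norm_real, Real.norm_eq_abs,
        add_zero]
      calc |y| * ‖V' (ξ + ((t * y : ℝ) : ℂ) * I)‖ ≤ |y| * (K * ‖V (ξ + ((t * y : ℝ) : ℂ) * I)‖) :=
            mul_le_mul_of_nonneg_left h1 (abs_nonneg y)
        _ = _ := by ring) 1 ⟨zero_le_one, le_rfl⟩
  rw [gronwallBound_ε0] at h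
  simpa using h

/-- absorbing constants into the exponent -/
theorem absorb {u₀ : ℝ} (hu : 0 < u₀) (c C : ℝ) : ∃ C' : ℝ, 0 < C' ∧ C ≤ C' ∧
    ∀ u : ℝ, u₀ ≤ u → c * Real.exp (C * u) ≤ Real.exp (C' * u) := by
  have hc : 0 < |c| + 1 := by positivity
  set A := Real.log (|c| + 1) with hA
  have hA0 : 0 ≤ A := Real.log_nonneg (by linarith [abs_nonneg c])
  refine ⟨|C| + A / u₀ + 1, by positivity, by
    have : 0 ≤ A / u₀ := by positivity
    linarith [le_abs_self C], fun u hu' => ?_⟩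
  have h0 : 0 < u := hu.trans_le hu'
  have h1 : A ≤ A / u₀ * u := by
    rw [div_mul_eq_mul_div, le_div_iff₀ hu]
    exact mul_le_mul_of_nonneg_left hu' hA0
  have h2 : C * u ≤ |C| * u := mul_le_mul_of_nonneg_right (le_abs_self C) h0.le
  calc c * Real.exp (C * u) ≤ (|c| + 1) * Real.exp (C * u) :=
        mul_le_mul_of_nonneg_right (by linarith [le_abs_self c]) (Real.exp_pos _).le
    _ = Real.exp (A + C * u) := by rw [Real.exp_add, hA, Real.exp_log hc]
    _ ≤ _ := Real.exp_le_exp.2 (by nlinarith)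

section

variable {Λ b : ℝ} {F q Q : ℂ → ℂ}

theorem dg (B : CC.Bs Λ b F q Q) : DifferentiableOn ℂ (deriv F) (Str b) :=
  B.dF.deriv (isOpen_Str b)

theorem dg1 (B : CC.Bs Λ b F q Q) : DifferentiableOn ℂ (deriv (deriv F)) (Str b) :=
  (dg B).deriv (isOpen_Str b)

theorem dq1 (B : CC.Bs Λ b F q Q) : DifferentiableOn ℂ (deriv q) (Str b) :=
  B.dq.deriv (isOpen_Str b)

theorem dq2 (B : CC.Bs Λ b F q Q) : DifferentiableOn ℂ (deriv (deriv q)) (Str b) :=
  (dq1 B).deriv (isOpen_Str b)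

theorem dq3 (B : CC.Bs Λ b F q Q) : DifferentiableOn ℂ (deriv (deriv (deriv q))) (Str b) :=
  (dq2 B).deriv (isOpen_Str b)

theorem nh {z : ℂ} (hz : z ∈ Str b) : Str b ∈ 𝓝 z := (isOpen_Str b).mem_nhds hz

/-- the third order linear equation of the support number -/
theorem ode (B : CC.Bs Λ b F q Q) {z : ℂ} (hz : z ∈ Str b) :
    deriv (deriv (deriv q)) z =
      (Q z - deriv F z ^ 2) * deriv q z - 3 * deriv F z * deriv (deriv F) z * q z := by
  set E : ℂ → ℂ := fun z => deriv (deriv (deriv q)) z - ((Q z - deriv F z ^ 2) * deriv q z -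
    3 * deriv F z * deriv (deriv F) z * q z) with hE
  have hdE : DifferentiableOn ℂ E (Str b) :=
    (dq3 B).sub (((B.dQ.sub ((dg B).pow 2)).mul (dq1 B)).sub
      ((((differentiableOn_const _).mul (dg B)).mul (dg1 B)).mul B.dq))
  have hEa : AnalyticOnNhd ℂ E (Str b) := hdE.analyticOnNhd (isOpen_Str b)
  have key : ∀ w ∈ Str b, deriv F w * E w = 0 := by
    intro w hw
    have h0 : Wr F q =ᶠ[𝓝 w] fun _ => (Λ : ℂ) ^ 3 := by
      filter_upwards [nh hw] with v hv using B.wr v hv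
    have h1 := h0.deriv_eq
    simp only [deriv_const] at h1
    have e1 := ((dq2 B).differentiableAt (nh hw)).hasDerivAt
    have e2 := ((dq1 B).differentiableAt (nh hw)).hasDerivAt
    have e3 := (B.dq.differentiableAt (nh hw)).hasDerivAt
    have f1 := ((dg1 B).differentiableAt (nh hw)).hasDerivAt
    have f2 := ((dg B).differentiableAt (nh hw)).hasDerivAt
    have h2 := (((e1.mul f2).sub (e2.mul f1)).add (e3.mul (f2.pow 3))).deriv
    have h3 : deriv (Wr F q) w = deriv (((deriv (deriv q) * deriv F) - deriv q * deriv (deriv F)) +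
      q * deriv F ^ 3) w := by
      congr 1
    rw [h3] at h1
    rw [h1] at h2
    have h4 := B.gQ w hw
    simp only [Nat.cast_ofNat, Nat.add_one_sub_one, Pi.pow_apply] at h2
    rw [h4] at h2
    simp only [hE]
    linear_combination -h2
  have hev : E =ᶠ[𝓝 (0 : ℂ)] 0 := by
    have h0 : (0 : ℂ) ∈ Str b := by simpa using real_mem_Str B.b0 0
    have h1 : deriv F 0 ≠ 0 := by
      intro h
      have := B.gpos 0
      simp [h] at this
    have h2 : ∀ᶠ w in 𝓝 (0 : ℂ), deriv F w ≠ 0 :=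
      ((dg B).differentiableAt (nh h0)).continuousAt.eventually_ne h1
    filter_upwards [h2, nh h0] with w hw1 hw2
    exact (mul_eq_zero.1 (key w hw2)).resolve_left hw1
  have h0 := hEa.eqOn_zero_of_preconnected_of_eventuallyEq_zero (convex_Str b).isPreconnected
    (by simpa using real_mem_Str B.b0 0) hev hz
  exact sub_eq_zero.1 h0

theorem per_deriv {f : ℂ → ℂ} {c : ℂ} (hf : ∀ z ∈ Str b, f (z + 1) = f z + c) {z : ℂ}
    (hz : z ∈ Str b) : deriv f (z + 1) = deriv f z := by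
  have h1 : (fun w => f (w + 1)) =ᶠ[𝓝 z] fun w => f w + c := by
    filter_upwards [nh hz] with w hw using hf w hw
  have h2 := h1.deriv_eq
  rw [deriv_comp_add_const, deriv_add_const] at h2
  exact h2

theorem vert {b : ℝ} {z : ℂ} (hz : z ∈ Str b) {s : ℝ} (hs : |s| ≤ |z.im|) :
    (z.re : ℂ) + s * I ∈ Str b := by
  rw [mem_Str]
  simp only [add_im, ofReal_im, mul_im, ofReal_re, I_im, mul_one, I_re, mul_zero, add_zero, zero_add]
  exact hs.trans_lt hz

theorem decomp (z : ℂ) : (z.re : ℂ) + z.im * I = z := re_add_im z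

/-- the size function -/
theorem sz_mono {a : ℝ} (ha : 0 < a) {z w : ℂ} (hz : z ∈ Str b) (h : |w.im| ≤ |z.im|) :
    (b - |w.im|) ^ (-a) ≤ (b - |z.im|) ^ (-a) := by
  have h0 : 0 < b - |z.im| := by linarith [mem_Str.1 hz]
  exact Real.rpow_le_rpow_of_nonpos h0 (by linarith) (by linarith)

theorem sz_low {a : ℝ} (ha : 0 < a) {z : ℂ} (hz : z ∈ Str b) : b ^ (-a) ≤ (b - |z.im|) ^ (-a) := by
  have h0 : 0 < b - |z.im| := by linarith [mem_Str.1 hz]
  exact Real.rpow_le_rpow_of_nonpos h0 (by linarith [abs_nonneg z.im]) (by linarith)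

/-- a periodic function whose derivative grows at most like `exp (C d ^ (-a))` does so itself -/
theorem integ {f : ℂ → ℂ} {a C : ℝ} (b0 : 0 < b) (ha : 0 < a) (hf : DifferentiableOn ℂ f (Str b))
    (hp : ∀ z ∈ Str b, f (z + 1) = f z)
    (h : ∀ z ∈ Str b, ‖deriv f z‖ ≤ Real.exp (C * (b - |z.im|) ^ (-a))) :
    ∃ C' > 0, ∀ z ∈ Str b, ‖f z‖ ≤ Real.exp (C' * (b - |z.im|) ^ (-a)) := by
  obtain ⟨M, hM0, hM⟩ := bdd_strip (P := 1) (β := b) (β' := 0) one_pos b0 hf.continuousOn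
    (by simpa using hp)
  have hu0 : 0 < b ^ (-a) := Real.rpow_pos_of_pos b0 _
  obtain ⟨C', hC', -, h'⟩ := absorb hu0 (M + b) |C|
  refine ⟨C', hC', fun z hz => le_trans ?_ (h' _ (sz_low ha hz))⟩
  have hs : Convex ℝ {w : ℂ | |w.im| ≤ |z.im|} := by
    intro u hu v hv m n hm hn hmn
    simp only [mem_setOf_eq] at hu hv ⊢
    have : (m • u + n • v).im = m * u.im + n * v.im := by simp
    rw [this]
    calc |m * u.im + n * v.im| ≤ |m * u.im| + |n * v.im| := abs_add_le _ _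
      _ = m * |u.im| + n * |v.im| := by rw [abs_mul, abs_mul, abs_of_nonneg hm, abs_of_nonneg hn]
      _ ≤ m * |z.im| + n * |z.im| := by gcongr
      _ = |z.im| := by rw [← add_mul, hmn, one_mul]
  have hsub : ∀ w : ℂ, |w.im| ≤ |z.im| → w ∈ Str b := fun w hw => hw.trans_lt hz
  have h1 := hs.norm_image_sub_le_of_norm_deriv_le (𝕜 := ℂ) (f := f)
    (C := Real.exp (|C| * (b - |z.im|) ^ (-a))) (x := (z.re : ℂ)) (y := z)
    (fun w hw => hf.differentiableAt (nh (hsub w hw)))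
    (fun w hw => (h w (hsub w hw)).trans (Real.exp_le_exp.2 (by
      have h3 : 0 ≤ (b - |w.im|) ^ (-a) := Real.rpow_nonneg (by linarith [mem_Str.1 (hsub w hw)]) _
      exact mul_le_mul (le_abs_self C) (sz_mono ha hz hw) h3 (abs_nonneg C))))
    (show |(z.re : ℂ).im| ≤ |z.im| by simp) (show |z.im| ≤ |z.im| from le_rfl)
  have h2 : ‖z - z.re‖ ≤ b := by
    have e : z - z.re = z.im * I := by
      linear_combination -(re_add_im z)
    rw [e, norm_mul, norm_I, mul_one, norm_real, Real.norm_eq_abs]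
    exact (mem_Str.1 hz).le
  have h3 : ‖f z.re‖ ≤ M := hM _ (by simp)
  have h4 : 1 ≤ Real.exp (|C| * (b - |z.im|) ^ (-a)) := Real.one_le_exp (by
    have : 0 ≤ (b - |z.im|) ^ (-a) := Real.rpow_nonneg (by linarith [mem_Str.1 hz]) _
    positivity)
  have h5 : ‖f z‖ ≤ ‖f z.re‖ + ‖f z - f z.re‖ := by
    have := norm_add_le (f z.re) (f z - f z.re)
    simpa using this
  nlinarith [norm_nonneg (z - z.re)]

/-- **growth of `F''`** -/
theorem out_g1 (B : CC.Bs Λ b F q Q) {a C : ℝ} (ha : 0 < a)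
    (h1 : ∀ x ∈ Str b, ‖deriv F x‖ ≤ Real.exp (C * (b - |x.im|) ^ (-a)))
    (h2 : ∀ x ∈ Str b, ‖Q x‖ ≤ Real.exp (C * (b - |x.im|) ^ (-a))) :
    ∃ C' > 0, ∀ x ∈ Str b, ‖deriv (deriv F) x‖ ≤ Real.exp (C' * (b - |x.im|) ^ (-a)) := by
  refine integ (C := C + C) B.b0 ha (dg1 B) (fun z hz => ?_) (fun z hz => ?_)
  · exact per_deriv (c := 0) (fun w hw => by
      rw [add_zero]; exact per_deriv (c := 2 * Real.pi) B.Fp hw) hz
  · rw [B.gQ z hz, norm_mul, add_mul, Real.exp_add]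
    exact mul_le_mul (h2 z hz) (h1 z hz) (norm_nonneg _) (Real.exp_pos _).le

/-- **growth of `F x - 2 π x`** -/
theorem out_F (B : CC.Bs Λ b F q Q) {a C : ℝ} (ha : 0 < a)
    (h1 : ∀ x ∈ Str b, ‖deriv F x‖ ≤ Real.exp (C * (b - |x.im|) ^ (-a))) :
    ∃ C' > 0, ∀ x ∈ Str b, ‖F x - 2 * Real.pi * x‖ ≤ Real.exp (C' * (b - |x.im|) ^ (-a)) := by
  have hu0 : 0 < b ^ (-a) := Real.rpow_pos_of_pos B.b0 _
  obtain ⟨C₁, hC₁, hCC, h'⟩ := absorb hu0 (1 + 2 * Real.pi) |C|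
  refine integ (C := C₁) B.b0 ha (B.dF.sub (differentiableOn_id.const_mul _)) (fun z hz => ?_)
    (fun z hz => ?_)
  · rw [B.Fp z hz]; ring
  · have e : deriv (fun x => F x - 2 * (Real.pi : ℂ) * x) z = deriv F z - 2 * Real.pi := by
      have h3 := (B.dF.differentiableAt (nh hz)).hasDerivAt.sub
        ((hasDerivAt_id z).const_mul (2 * (Real.pi : ℂ)))
      have h4 := h3.deriv
      simp only [mul_one] at h4
      exact h4
    rw [e]
    refine le_trans ?_ (h' _ (sz_low ha hz))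
    have hu : 0 ≤ (b - |z.im|) ^ (-a) := Real.rpow_nonneg (by linarith [mem_Str.1 hz]) _
    have h3 : Real.exp (C * (b - |z.im|) ^ (-a)) ≤ Real.exp (|C| * (b - |z.im|) ^ (-a)) :=
      Real.exp_le_exp.2 (mul_le_mul_of_nonneg_right (le_abs_self C) hu)
    have h4 : 1 ≤ Real.exp (|C| * (b - |z.im|) ^ (-a)) := Real.one_le_exp (by positivity)
    have h5 : ‖(2 * Real.pi : ℂ)‖ = 2 * Real.pi := by
      rw [norm_mul, norm_real, Real.norm_of_nonneg Real.pi_pos.le]; simp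
    have h6 := norm_sub_le (deriv F z) (2 * Real.pi : ℂ)
    rw [h5] at h6
    nlinarith [h1 z hz, Real.pi_pos]

/-- **growth of `q`, `q'`, `q''`** -/
theorem out_q (B : CC.Bs Λ b F q Q) {a C : ℝ} (ha : 0 < a)
    (h1 : ∀ x ∈ Str b, ‖deriv F x‖ ≤ Real.exp (C * (b - |x.im|) ^ (-a)))
    (h2 : ∀ x ∈ Str b, ‖Q x‖ ≤ Real.exp (C * (b - |x.im|) ^ (-a))) :
    ∃ C' > 0, ∀ x ∈ Str b, ‖q x‖ ≤ Real.exp (Real.exp (C' * (b - |x.im|) ^ (-a))) ∧
      ‖deriv q x‖ ≤ Real.exp (Real.exp (C' * (b - |x.im|) ^ (-a))) ∧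
      ‖deriv (deriv q) x‖ ≤ Real.exp (Real.exp (C' * (b - |x.im|) ^ (-a))) := by
  obtain ⟨C₂, hC₂, h3⟩ := out_g1 B ha h1 h2
  have b0 := B.b0
  have hu0 : 0 < b ^ (-a) := Real.rpow_pos_of_pos b0 _
  set C₀ := max |C| C₂ with hC₀
  have hC00 : 0 ≤ C₀ := (abs_nonneg C).trans (le_max_left _ _)
  set V : ℂ → ℂ × ℂ × ℂ := fun z => (q z, deriv q z, deriv (deriv q) z) with hV
  set V' : ℂ → ℂ × ℂ × ℂ := fun z => (deriv q z, deriv (deriv q) z, deriv (deriv (deriv q)) z)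
    with hV'
  have hVd : ∀ z ∈ Str b, HasDerivAt V (V' z) z := by
    intro z hz
    exact (B.dq.differentiableAt (nh hz)).hasDerivAt.prodMk
      (((dq1 B).differentiableAt (nh hz)).hasDerivAt.prodMk
        ((dq2 B).differentiableAt (nh hz)).hasDerivAt)
  have hVc : ContinuousOn V (Str b) := fun z hz => (hVd z hz).continuousAt.continuousWithinAt
  have hp1 : ∀ z ∈ Str b, deriv q (z + 1) = deriv q z := fun z hz =>
    per_deriv (c := 0) (fun w hw => by rw [add_zero]; exact B.qp w hw) hz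
  have hp2 : ∀ z ∈ Str b, deriv (deriv q) (z + 1) = deriv (deriv q) z := fun z hz =>
    per_deriv (c := 0) (fun w hw => by rw [add_zero]; exact hp1 w hw) hz
  obtain ⟨M, hM0, hM⟩ := bdd_strip (P := 1) (β := b) (β' := 0) one_pos b0 hVc
    (by
      intro z hz
      simp only [hV, ofReal_one]
      rw [B.qp z hz, hp1 z hz, hp2 z hz])
  obtain ⟨C₃, hC₃, -, h4⟩ := absorb hu0 (|Real.log (M + 1)| + 6 * b) (C₀ + C₀)
  refine ⟨C₃, hC₃, fun z hz => ?_⟩
  set u := (b - |z.im|) ^ (-a) with hu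
  have hul : b ^ (-a) ≤ u := sz_low ha hz
  have hu' : 0 < u := hu0.trans_le hul
  set e := Real.exp (C₀ * u) with he
  have he1 : 1 ≤ e := Real.one_le_exp (by positivity)
  have hbd : ∀ {w : ℂ} {c : ℝ}, w ∈ Str b → |w.im| ≤ |z.im| → c ≤ C₀ →
      Real.exp (c * (b - |w.im|) ^ (-a)) ≤ e := by
    intro w c hw hwz hc
    have h5 : 0 ≤ (b - |w.im|) ^ (-a) := Real.rpow_nonneg (by linarith [mem_Str.1 hw]) _
    exact Real.exp_le_exp.2 ((mul_le_mul_of_nonneg_right hc h5).trans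
      (mul_le_mul_of_nonneg_left (sz_mono ha hz hwz) hC00))
  have hCC0 : C ≤ C₀ := (le_abs_self C).trans (le_max_left _ _)
  have hK : ∀ w ∈ Str b, |w.im| ≤ |z.im| → ‖V' w‖ ≤ 6 * e ^ 2 * ‖V w‖ := by
    intro w hw hwz
    have g1 := (h1 w hw).trans (hbd hw hwz hCC0)
    have g2 := (h2 w hw).trans (hbd hw hwz hCC0)
    have g3 := (h3 w hw).trans (hbd hw hwz (le_max_right _ _))
    have n1 : ‖q w‖ ≤ ‖V w‖ := norm_fst_le (V w)
    have n2 : ‖deriv q w‖ ≤ ‖V w‖ := (norm_fst_le (V w).2).trans (norm_snd_le (V w))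
    have n3 : ‖deriv (deriv q) w‖ ≤ ‖V w‖ := (norm_snd_le (V w).2).trans (norm_snd_le (V w))
    have n0 := norm_nonneg (V w)
    have he2 : 1 ≤ 6 * e ^ 2 := by nlinarith
    have k1 : ‖V w‖ ≤ 6 * e ^ 2 * ‖V w‖ := le_mul_of_one_le_left n0 he2
    have k2 : ‖deriv (deriv (deriv q)) w‖ ≤ 6 * e ^ 2 * ‖V w‖ := by
      rw [ode B hw]
      calc ‖(Q w - deriv F w ^ 2) * deriv q w - 3 * deriv F w * deriv (deriv F) w * q w‖
          ≤ ‖(Q w - deriv F w ^ 2) * deriv q w‖ + ‖3 * deriv F w * deriv (deriv F) w * q w‖ :=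
            norm_sub_le _ _
        _ ≤ (‖Q w‖ + ‖deriv F w‖ ^ 2) * ‖V w‖ + 3 * ‖deriv F w‖ * ‖deriv (deriv F) w‖ * ‖V w‖ := by
            rw [norm_mul, norm_mul, norm_mul, norm_mul]
            have t1 : ‖Q w - deriv F w ^ 2‖ ≤ ‖Q w‖ + ‖deriv F w‖ ^ 2 := by
              rw [← norm_pow]; exact norm_sub_le _ _
            have t2 : ‖(3 : ℂ)‖ = 3 := by simp
            rw [t2]
            gcongr
        _ ≤ (e + e ^ 2) * ‖V w‖ + 3 * e * e * ‖V w‖ := by gcongr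
        _ ≤ _ := by nlinarith
    refine norm_prod_le_iff.2 ⟨n2.trans k1, norm_prod_le_iff.2 ⟨n3.trans k1, k2⟩⟩
  have hmain : ‖V z‖ ≤ Real.exp (Real.exp (C₃ * u)) := by
    have g := gron (V := V) (V' := V') (ξ := z.re) (y := z.im) (K := 6 * e ^ 2)
      (fun s hs => hVd _ (vert hz hs)) (fun s hs => hK _ (vert hz hs) (by
        simpa using hs))
    rw [re_add_im] at g
    have g1 : ‖V z.re‖ ≤ M + 1 := (hM _ (by simp)).trans (by linarith)
    have g2 : Real.exp (6 * e ^ 2 * |z.im|) ≤ Real.exp (6 * b * Real.exp ((C₀ + C₀) * u)) := by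
      refine Real.exp_le_exp.2 ?_
      have e2 : Real.exp ((C₀ + C₀) * u) = e ^ 2 := by
        rw [add_mul, Real.exp_add, he, sq]
      rw [e2]
      have := (mem_Str.1 hz).le
      nlinarith [sq_nonneg e]
    have hM1 : 0 < M + 1 := by linarith
    calc ‖V z‖ ≤ ‖V z.re‖ * Real.exp (6 * e ^ 2 * |z.im|) := g
      _ ≤ (M + 1) * Real.exp (6 * b * Real.exp ((C₀ + C₀) * u)) :=
          mul_le_mul g1 g2 (Real.exp_pos _).le hM1.le
      _ = Real.exp (Real.log (M + 1) + 6 * b * Real.exp ((C₀ + C₀) * u)) := by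
          rw [Real.exp_add, Real.exp_log hM1]
      _ ≤ Real.exp (Real.exp (C₃ * u)) := by
          refine Real.exp_le_exp.2 (le_trans ?_ (h4 u hul))
          have e3 : 1 ≤ Real.exp ((C₀ + C₀) * u) := Real.one_le_exp (by positivity)
          have e4 := le_abs_self (Real.log (M + 1))
          have e5 := abs_nonneg (Real.log (M + 1))
          nlinarith
  exact ⟨(norm_fst_le (V z)).trans hmain, ((norm_fst_le (V z).2).trans (norm_snd_le (V z))).trans
    hmain, ((norm_snd_le (V z).2).trans (norm_snd_le (V z))).trans hmain⟩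

/-- polynomial bounds are smaller -/
theorem of_pow {b a N : ℝ} (b0 : 0 < b) (ha : 0 < a) (hN : 0 ≤ N) (C : ℝ) : ∃ C' > 0,
    ∀ x ∈ Str b, C * (b - |x.im|) ^ (-N) ≤ Real.exp (C' * (b - |x.im|) ^ (-a)) := by
  obtain ⟨C', hC', -, h⟩ := absorb (Real.rpow_pos_of_pos b0 (-a)) |C| (N / a)
  refine ⟨C', hC', fun x hx => le_trans ?_ (h _ (sz_low ha hx))⟩
  have hd : 0 < b - |x.im| := by linarith [mem_Str.1 hx]
  set u := (b - |x.im|) ^ (-a) with hu
  have hu0 : 0 < u := Real.rpow_pos_of_pos hd _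
  have e1 : (b - |x.im|) ^ (-N) = Real.exp (N / a * Real.log u) := by
    rw [hu, Real.log_rpow hd, Real.rpow_def_of_pos hd]
    congr 1
    field_simp
  rw [e1]
  refine mul_le_mul (le_abs_self C) (Real.exp_le_exp.2 (mul_le_mul_of_nonneg_left ?_
    (by positivity))) (Real.exp_pos _).le (abs_nonneg C)
  linarith [Real.log_le_sub_one_of_pos hu0]

/-- polynomial bounds with a natural power are smaller -/
theorem of_npow {b a : ℝ} (b0 : 0 < b) (ha : 0 < a) (N : ℕ) (C : ℝ) : ∃ C' > 0,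
    ∀ x ∈ Str b, C / (b - |x.im|) ^ N ≤ Real.exp (C' * (b - |x.im|) ^ (-a)) := by
  obtain ⟨C', hC', h⟩ := of_pow b0 ha (Nat.cast_nonneg N) C
  refine ⟨C', hC', fun x hx => le_trans (le_of_eq ?_) (h x hx)⟩
  have hd : 0 < b - |x.im| := by linarith [mem_Str.1 hx]
  rw [Real.rpow_neg hd.le, Real.rpow_natCast, div_eq_mul_inv]

/-- **all growth outputs at once** -/
theorem out_all (B : CC.Bs Λ b F q Q) {a C : ℝ} (ha : 0 < a)
    (h1 : ∀ x ∈ Str b, ‖deriv F x‖ ≤ Real.exp (C * (b - |x.im|) ^ (-a)))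
    (h2 : ∀ x ∈ Str b, ‖Q x‖ ≤ Real.exp (C * (b - |x.im|) ^ (-a))) :
    ∃ C' > 0, ∀ x ∈ Str b,
      ‖F x - 2 * Real.pi * x‖ ≤ Real.exp (C' * (b - |x.im|) ^ (-a)) ∧
      ‖deriv F x‖ ≤ Real.exp (C' * (b - |x.im|) ^ (-a)) ∧
      ‖deriv (deriv F) x‖ ≤ Real.exp (C' * (b - |x.im|) ^ (-a)) ∧
      ‖q x‖ ≤ Real.exp (Real.exp (C' * (b - |x.im|) ^ (-a))) ∧
      ‖deriv q x‖ ≤ Real.exp (Real.exp (C' * (b - |x.im|) ^ (-a))) ∧
      ‖deriv (deriv q) x‖ ≤ Real.exp (Real.exp (C' * (b - |x.im|) ^ (-a))) := by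
  obtain ⟨c1, -, k1⟩ := out_F B ha h1
  obtain ⟨c2, -, k2⟩ := out_g1 B ha h1 h2
  obtain ⟨c3, -, k3⟩ := out_q B ha h1 h2
  set c := max (max (max c1 c2) (max c3 C)) 1 with hc
  have l1 : c1 ≤ c := (le_max_left _ _).trans ((le_max_left _ _).trans (le_max_left _ _))
  have l2 : c2 ≤ c := (le_max_right _ _).trans ((le_max_left _ _).trans (le_max_left _ _))
  have l3 : c3 ≤ c := (le_max_left _ _).trans ((le_max_right _ _).trans (le_max_left _ _))
  have l4 : C ≤ c := (le_max_right _ _).trans ((le_max_right _ _).trans (le_max_left _ _))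
  refine ⟨c, one_pos.trans_le (le_max_right _ _), fun x hx => ?_⟩
  have hu : 0 ≤ (b - |x.im|) ^ (-a) := Real.rpow_nonneg (by linarith [mem_Str.1 hx]) _
  have m : ∀ {c' : ℝ}, c' ≤ c → Real.exp (c' * (b - |x.im|) ^ (-a)) ≤
      Real.exp (c * (b - |x.im|) ^ (-a)) :=
    fun h => Real.exp_le_exp.2 (mul_le_mul_of_nonneg_right h hu)
  obtain ⟨t1, t2, t3⟩ := k3 x hx
  exact ⟨(k1 x hx).trans (m l1), (h1 x hx).trans (m l4), (k2 x hx).trans (m l2),
    t1.trans (Real.exp_le_exp.2 (m l3)), t2.trans (Real.exp_le_exp.2 (m l3)),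
    t3.trans (Real.exp_le_exp.2 (m l3))⟩

end

end Vale.Agent.P097.H348.G
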